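import Mathlib

/-!
# Maker-Breaker achievement games on a board of cells of `ℤ × ℤ`

Definitions of the Snaky hexomino, its allowed copies, and of a winning strategy for Breaker,
together with the general fact that a pairing yields a winning strategy for Breaker.
-/

namespace Vale.Agent.Lib.P062

/-- A cell of the square grid, indexed by its lower-left corner. -/
abbrev Cell := ℤ × ℤ

/-- The hexomino Snaky. -/
def snaky : List Cell := [(0, 0), (1, 0), (2, 0), (3, 0), (3, 1), (4, 1)]

/-- The signed permutation of the plane with signs `a`, `b` (each `1` or `-1`), composed with the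
swap of the two coordinates when `swap` is true. -/
def signedPerm (swap : Bool) (a b : ℤ) (c : Cell) : Cell :=
  if swap then (a * c.2, b * c.1) else (a * c.1, b * c.2)

/-- `P` is an allowed copy of Snaky: `P = t + R(S)` for a translation `t` and one of the eight
signed permutation matrices `R`. -/
def IsSnakyCopy (P : Finset Cell) : Prop :=
  ∃ (swap : Bool) (a b : ℤ) (t : Cell), (a = 1 ∨ a = -1) ∧ (b = 1 ∨ b = -1) ∧
    P = (snaky.map fun c => t + signedPerm swap a b c).toFinset

/-- The first `k` moves of Maker, in chronological order. -/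
def firstMoves (m : ℕ → Cell) (k : ℕ) : List Cell := (List.range k).map m

/-- `τ` is a winning strategy for Breaker on the board `board` against the family `wins` of
winning sets. A strategy maps the chronological list of Maker's moves so far to Breaker's reply
(so Breaker's `i`-th claim is `τ [m 0, …, m i]`). The condition says: whenever Maker's moves
`m 0, …, m k` are legal (each lies in the board and was claimed by nobody before), Breaker's
reply to `m k` is legal too (it lies in the board and was claimed by nobody before), and Maker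
does not own all cells of any winning set. -/
def BreakerWinningStrategy (board : Set Cell) (wins : Set (Finset Cell))
    (τ : List Cell → Cell) : Prop :=
  ∀ (m : ℕ → Cell) (k : ℕ),
    (∀ i ≤ k, m i ∈ board ∧ (∀ j < i, m i ≠ m j) ∧
      (∀ j < i, m i ≠ τ (firstMoves m (j + 1)))) →
    (τ (firstMoves m (k + 1)) ∈ board ∧
      (∀ j ≤ k, τ (firstMoves m (k + 1)) ≠ m j) ∧
      (∀ j < k, τ (firstMoves m (k + 1)) ≠ τ (firstMoves m (j + 1)))) ∧
    ∀ P ∈ wins, ¬ (∀ c ∈ P, ∃ i ≤ k, m i = c)

/-! ### Pairing strategies -/

/-- One round of the pairing strategy: Maker claims `c`; Breaker answers with the partner of `c`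
if `c` has a partner that Breaker does not own yet, and with a fresh cell otherwise. The state
is the pair (Maker's cells, Breaker's cells), most recent first. -/
def pairStep (p : Cell → Cell) (fresh : List Cell → Cell)
    (s : List Cell × List Cell) (c : Cell) : List Cell × List Cell :=
  (c :: s.1, (if p c ≠ c ∧ p c ∉ s.2 then p c else fresh (c :: (s.1 ++ s.2))) :: s.2)

/-- The state after Maker's moves `ms` (chronological) when Breaker follows the pairing. -/
def pairRun (p : Cell → Cell) (fresh : List Cell → Cell) (ms : List Cell) :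
    List Cell × List Cell :=
  ms.foldl (pairStep p fresh) ([], [])

/-- The pairing strategy. -/
def pairStrategy (p : Cell → Cell) (fresh : List Cell → Cell) (ms : List Cell) : Cell :=
  (pairRun p fresh ms).2.headD (0, 0)

theorem firstMoves_succ (m : ℕ → Cell) (k : ℕ) :
    firstMoves m (k + 1) = firstMoves m k ++ [m k] := by
  simp [firstMoves, List.range_succ]

theorem pairRun_succ (p : Cell → Cell) (fresh : List Cell → Cell) (m : ℕ → Cell) (k : ℕ) :
    pairRun p fresh (firstMoves m (k + 1))
      = pairStep p fresh (pairRun p fresh (firstMoves m k)) (m k) := by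
  simp [pairRun, firstMoves_succ, List.foldl_append]

theorem pairStrategy_succ (p : Cell → Cell) (fresh : List Cell → Cell) (m : ℕ → Cell) (k : ℕ) :
    pairStrategy p fresh (firstMoves m (k + 1))
      = (if p (m k) ≠ m k ∧ p (m k) ∉ (pairRun p fresh (firstMoves m k)).2 then p (m k)
          else fresh (m k :: ((pairRun p fresh (firstMoves m k)).1
            ++ (pairRun p fresh (firstMoves m k)).2))) := by
  simp [pairStrategy, pairRun_succ, pairStep]

theorem pairRun_succ' (p : Cell → Cell) (fresh : List Cell → Cell) (m : ℕ → Cell) (k : ℕ) :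
    pairRun p fresh (firstMoves m (k + 1))
      = (m k :: (pairRun p fresh (firstMoves m k)).1,
          pairStrategy p fresh (firstMoves m (k + 1)) :: (pairRun p fresh (firstMoves m k)).2) := by
  rw [pairStrategy_succ, pairRun_succ]
  rfl

/-- Invariants of the pairing strategy after `n` rounds: the two lists are the cells claimed by
Maker and by Breaker, and every paired cell of Maker has its partner owned by Breaker. -/
theorem pair_key (p : Cell → Cell) (fresh : List Cell → Cell) (m : ℕ → Cell) (n : ℕ) :
    (∀ c, c ∈ (pairRun p fresh (firstMoves m n)).1 ↔ ∃ i < n, m i = c) ∧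
    (∀ c, c ∈ (pairRun p fresh (firstMoves m n)).2 ↔
      ∃ i < n, pairStrategy p fresh (firstMoves m (i + 1)) = c) ∧
    (∀ c ∈ (pairRun p fresh (firstMoves m n)).1, p c ≠ c →
      p c ∈ (pairRun p fresh (firstMoves m n)).2) := by
  induction n with
  | zero => simp [pairRun, firstMoves]
  | succ n ih =>
    obtain ⟨ih1, ih2, ih3⟩ := ih
    have hstrat := pairStrategy_succ p fresh m n
    rw [pairRun_succ']
    refine ⟨?_, ?_, ?_⟩
    · intro c
      simp only [List.mem_cons, ih1]
      constructor
      · rintro (h | ⟨i, hi, h⟩)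
        · exact ⟨n, by omega, h.symm⟩
        · exact ⟨i, by omega, h⟩
      · rintro ⟨i, hi, h⟩
        rcases Nat.lt_succ_iff_lt_or_eq.mp hi with h' | h'
        · exact Or.inr ⟨i, h', h⟩
        · left; rw [← h, h']
    · intro c
      simp only [List.mem_cons, ih2]
      constructor
      · rintro (h | ⟨i, hi, h⟩)
        · exact ⟨n, by omega, h.symm⟩
        · exact ⟨i, by omega, h⟩
      · rintro ⟨i, hi, h⟩
        rcases Nat.lt_succ_iff_lt_or_eq.mp hi with h' | h'
        · exact Or.inr ⟨i, h', h⟩
        · left; rw [← h, h']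
    · intro c hc hpc
      simp only [List.mem_cons] at hc ⊢
      rcases hc with h | h
      · by_cases hcase : p (m n) ≠ m n ∧ p (m n) ∉ (pairRun p fresh (firstMoves m n)).2
        · left; rw [hstrat, if_pos hcase, h]
        · right
          rw [h] at hpc ⊢
          by_contra hnot
          exact hcase ⟨hpc, hnot⟩
      · exact Or.inr (ih3 c h hpc)

/-- Breaker's reply under the pairing strategy is always legal. -/
theorem pair_legal (board : Set Cell) (p : Cell → Cell) (fresh : List Cell → Cell)
    (hinv : ∀ c, p (p c) = c) (hboard : ∀ c ∈ board, p c ∈ board)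
    (hfresh : ∀ l, fresh l ∈ board ∧ fresh l ∉ l) (m : ℕ → Cell) (k : ℕ)
    (hmk_board : m k ∈ board)
    (hmk_newB : ∀ j < k, m k ≠ pairStrategy p fresh (firstMoves m (j + 1))) :
    pairStrategy p fresh (firstMoves m (k + 1)) ∈ board ∧
      (∀ j ≤ k, pairStrategy p fresh (firstMoves m (k + 1)) ≠ m j) ∧
      (∀ j < k, pairStrategy p fresh (firstMoves m (k + 1))
        ≠ pairStrategy p fresh (firstMoves m (j + 1))) := by
  obtain ⟨k1, k2, k3⟩ := pair_key p fresh m k
  have hmk2 : m k ∉ (pairRun p fresh (firstMoves m k)).2 := by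
    rw [k2]; rintro ⟨i, hi, h⟩; exact hmk_newB i hi h.symm
  have hstrat := pairStrategy_succ p fresh m k
  by_cases hcase : p (m k) ≠ m k ∧ p (m k) ∉ (pairRun p fresh (firstMoves m k)).2
  · rw [hstrat, if_pos hcase]
    have hnot1 : p (m k) ∉ (pairRun p fresh (firstMoves m k)).1 := by
      intro hin
      have := k3 (p (m k)) hin (by rw [hinv]; exact fun h => hcase.1 h.symm)
      rw [hinv] at this
      exact hmk2 this
    refine ⟨hboard _ hmk_board, ?_, ?_⟩
    · intro j hj hEq
      rcases Nat.lt_or_ge j k with h' | h'
      · exact hnot1 ((k1 _).mpr ⟨j, h', hEq.symm⟩)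
      · have : j = k := by omega
        rw [this] at hEq
        exact hcase.1 hEq
    · intro j hj hEq
      exact hcase.2 ((k2 _).mpr ⟨j, hj, hEq.symm⟩)
  · rw [hstrat, if_neg hcase]
    obtain ⟨hf1, hf2⟩ := hfresh (m k :: ((pairRun p fresh (firstMoves m k)).1
          ++ (pairRun p fresh (firstMoves m k)).2))
    simp only [List.mem_cons, List.mem_append, not_or] at hf2
    refine ⟨hf1, ?_, ?_⟩
    · intro j hj hEq
      rcases Nat.lt_or_ge j k with h' | h'
      · exact hf2.2.1 ((k1 _).mpr ⟨j, h', hEq.symm⟩)
      · have : j = k := by omega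
        rw [this] at hEq
        exact hf2.1 hEq
    · intro j hj hEq
      exact hf2.2.2 ((k2 _).mpr ⟨j, hj, hEq.symm⟩)

/-- A pairing gives a winning strategy for Breaker. Here `p` is an involution of the cells
preserving the board (cells with `p c = c` are unpaired), `fresh` produces an unclaimed cell of
the board, and every winning set lying in the board contains a pair. -/
theorem pairing_wins (board : Set Cell) (wins : Set (Finset Cell))
    (p : Cell → Cell) (fresh : List Cell → Cell)
    (hinv : ∀ c, p (p c) = c) (hboard : ∀ c ∈ board, p c ∈ board)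
    (hfresh : ∀ l, fresh l ∈ board ∧ fresh l ∉ l)
    (hcover : ∀ P ∈ wins, (∀ c ∈ P, c ∈ board) → ∃ c ∈ P, p c ≠ c ∧ p c ∈ P) :
    BreakerWinningStrategy board wins (pairStrategy p fresh) := by
  intro m k hlegal
  refine ⟨pair_legal board p fresh hinv hboard hfresh m k (hlegal k (le_refl k)).1
    (hlegal k (le_refl k)).2.2, ?_⟩
  intro P hP hown
  obtain ⟨K1, K2, K3⟩ := pair_key p fresh m (k + 1)
  have hMem : ∀ c ∈ P, c ∈ (pairRun p fresh (firstMoves m (k + 1))).1 := by
    intro c hc
    obtain ⟨i, hi, h⟩ := hown c hc
    exact (K1 c).mpr ⟨i, by omega, h⟩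
  have hPboard : ∀ c ∈ P, c ∈ board := by
    intro c hc
    obtain ⟨i, hi, h⟩ := hown c hc
    rw [← h]; exact (hlegal i hi).1
  obtain ⟨c, hc, hpc, hpcP⟩ := hcover P hP hPboard
  have h2 := K3 c (hMem c hc) hpc
  obtain ⟨i, hi, h⟩ := (K2 _).mp h2
  obtain ⟨i', hi', h'⟩ := (K1 _).mp (hMem _ hpcP)
  rw [← h'] at h
  rcases Nat.lt_or_ge i i' with hlt | hge
  · exact (hlegal i' (by omega)).2.2 i hlt h.symm
  · have hi_le : i ≤ k := by omega
    exact (pair_legal board p fresh hinv hboard hfresh m i (hlegal i hi_le).1
      (hlegal i hi_le).2.2).2.1 i' hge h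

end Vale.Agent.Lib.P062
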