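import Mathlib
import Vale.Agent.Lib.P062.Game

/-!
# A pairing strategy for Breaker against Snaky on the strip of five rows
-/

namespace Vale.Agent.Lib.P062

/-- The strip of five rows `ℤ × {0, 1, 2, 3, 4}`. -/
def strip5 : Set Cell := {c | 0 ≤ c.2 ∧ c.2 ≤ 4}

/-- The partner map of the pairing, of period three in the first coordinate: in columns
`x ≡ 1 (mod 3)` rows `0,1` and rows `3,4` are paired vertically (row `2` is unpaired); the cells
of columns `x ≡ 2` and `x + 1 ≡ 0 (mod 3)` in the same row are paired horizontally. -/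
def partner5 (c : Cell) : Cell :=
  if c.1 % 3 = 1 then
    (if c.2 = 0 then (c.1, 1) else if c.2 = 1 then (c.1, 0)
      else if c.2 = 3 then (c.1, 4) else if c.2 = 4 then (c.1, 3) else c)
  else if c.1 % 3 = 2 then (c.1 + 1, c.2)
  else (c.1 - 1, c.2)

/-- A cell of row `0` to the right of all cells of the list. -/
def fresh5 (l : List Cell) : Cell := ((l.map fun c => |c.1|).sum + 1, 0)

theorem partner5_invol (c : Cell) : partner5 (partner5 c) = c := by
  obtain ⟨x, y⟩ := c
  have hx : x % 3 = 0 ∨ x % 3 = 1 ∨ x % 3 = 2 := by omega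
  rcases hx with h | h | h
  · have h1 : (x - 1) % 3 = 2 := by omega
    simp [partner5, h, h1]
  · by_cases h0 : y = 0
    · simp [partner5, h, h0]
    · by_cases h1 : y = 1
      · simp [partner5, h, h1]
      · by_cases h3 : y = 3
        · simp [partner5, h, h3]
        · by_cases h4 : y = 4
          · simp [partner5, h, h4]
          · simp [partner5, h, h0, h1, h3, h4]
  · have h1 : (x + 1) % 3 = 0 := by omega
    simp [partner5, h, h1]

theorem partner5_board (c : Cell) (hc : c ∈ strip5) : partner5 c ∈ strip5 := by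
  obtain ⟨x, y⟩ := c
  have hc' : 0 ≤ y ∧ y ≤ 4 := hc
  show 0 ≤ (partner5 (x, y)).2 ∧ (partner5 (x, y)).2 ≤ 4
  unfold partner5
  split_ifs <;> simp_all

theorem fresh5_spec (l : List Cell) : fresh5 l ∈ strip5 ∧ fresh5 l ∉ l := by
  refine ⟨by simp [fresh5, strip5], ?_⟩
  intro hmem
  have hle : |(fresh5 l).1| ≤ (l.map fun c => |c.1|).sum :=
    List.single_le_sum (fun x hx => by
      obtain ⟨c, _, rfl⟩ := List.mem_map.mp hx
      exact abs_nonneg _) _ (List.mem_map.mpr ⟨_, hmem, rfl⟩)
  have : (fresh5 l).1 = (l.map fun c => |c.1|).sum + 1 := rfl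
  have h2 := le_abs_self (fresh5 l).1
  omega

/-- Four consecutive cells of a row contain a pair. -/
theorem cover_row (P : Finset Cell) (X y : ℤ) (h0 : (X, y) ∈ P) (h1 : (X + 1, y) ∈ P)
    (h2 : (X + 2, y) ∈ P) (h3 : (X + 3, y) ∈ P) :
    ∃ c ∈ P, partner5 c ≠ c ∧ partner5 c ∈ P := by
  have hx : X % 3 = 0 ∨ X % 3 = 1 ∨ X % 3 = 2 := by omega
  rcases hx with h | h | h
  · have e : (X + 2) % 3 = 2 := by omega
    refine ⟨(X + 2, y), h2, ?_, ?_⟩
    · simp [partner5, e]
    · have : partner5 (X + 2, y) = (X + 3, y) := by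
        simp [partner5, e]; ring
      rw [this]; exact h3
  · have e : (X + 1) % 3 = 2 := by omega
    refine ⟨(X + 1, y), h1, ?_, ?_⟩
    · simp [partner5, e]
    · have : partner5 (X + 1, y) = (X + 2, y) := by
        simp [partner5, e]; ring
      rw [this]; exact h2
  · refine ⟨(X, y), h0, ?_, ?_⟩
    · simp [partner5, h]
    · have : partner5 (X, y) = (X + 1, y) := by
        simp [partner5, h]
      rw [this]; exact h1

/-- A vertical copy whose long arm occupies rows `0..3` of column `X` contains a pair. -/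
theorem cover_col_up (P : Finset Cell) (X a : ℤ) (ha : a = 1 ∨ a = -1)
    (h0 : (X, 0) ∈ P) (h1 : (X, 1) ∈ P) (h3 : (X, 3) ∈ P)
    (t3 : (X + a, 3) ∈ P) (t4 : (X + a, 4) ∈ P) :
    ∃ c ∈ P, partner5 c ≠ c ∧ partner5 c ∈ P := by
  have hx : X % 3 = 0 ∨ X % 3 = 1 ∨ X % 3 = 2 := by omega
  rcases hx with h | h | h
  · rcases ha with rfl | rfl
    · have e : (X + 1) % 3 = 1 := by omega
      refine ⟨(X + 1, 3), t3, ?_, ?_⟩
      · simp [partner5, e]
      · have : partner5 (X + 1, 3) = (X + 1, 4) := by simp [partner5, e]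
        rw [this]; exact t4
    · have e : (X + -1) % 3 = 2 := by omega
      refine ⟨(X + -1, 3), t3, ?_, ?_⟩
      · simp [partner5, e]
      · have : partner5 (X + -1, 3) = (X, 3) := by simp [partner5, e]
        rw [this]; exact h3
  · refine ⟨(X, 0), h0, ?_, ?_⟩
    · simp [partner5, h]
    · have : partner5 (X, 0) = (X, 1) := by simp [partner5, h]
      rw [this]; exact h1
  · rcases ha with rfl | rfl
    · refine ⟨(X, 3), h3, ?_, ?_⟩
      · simp [partner5, h]
      · have : partner5 (X, 3) = (X + 1, 3) := by simp [partner5, h]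
        rw [this]; exact t3
    · have e : (X + -1) % 3 = 1 := by omega
      refine ⟨(X + -1, 3), t3, ?_, ?_⟩
      · simp [partner5, e]
      · have : partner5 (X + -1, 3) = (X + -1, 4) := by simp [partner5, e]
        rw [this]; exact t4

/-- A vertical copy whose long arm occupies rows `1..4` of column `X` contains a pair. -/
theorem cover_col_down (P : Finset Cell) (X a : ℤ) (ha : a = 1 ∨ a = -1)
    (h4 : (X, 4) ∈ P) (h3 : (X, 3) ∈ P) (h1 : (X, 1) ∈ P)
    (t1 : (X + a, 1) ∈ P) (t0 : (X + a, 0) ∈ P) :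
    ∃ c ∈ P, partner5 c ≠ c ∧ partner5 c ∈ P := by
  have hx : X % 3 = 0 ∨ X % 3 = 1 ∨ X % 3 = 2 := by omega
  rcases hx with h | h | h
  · rcases ha with rfl | rfl
    · have e : (X + 1) % 3 = 1 := by omega
      refine ⟨(X + 1, 0), t0, ?_, ?_⟩
      · simp [partner5, e]
      · have : partner5 (X + 1, 0) = (X + 1, 1) := by simp [partner5, e]
        rw [this]; exact t1
    · have e : (X + -1) % 3 = 2 := by omega
      refine ⟨(X + -1, 1), t1, ?_, ?_⟩
      · simp [partner5, e]
      · have : partner5 (X + -1, 1) = (X, 1) := by simp [partner5, e]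
        rw [this]; exact h1
  · refine ⟨(X, 3), h3, ?_, ?_⟩
    · simp [partner5, h]
    · have : partner5 (X, 3) = (X, 4) := by simp [partner5, h]
      rw [this]; exact h4
  · rcases ha with rfl | rfl
    · refine ⟨(X, 1), h1, ?_, ?_⟩
      · simp [partner5, h]
      · have : partner5 (X, 1) = (X + 1, 1) := by simp [partner5, h]
        rw [this]; exact t1
    · have e : (X + -1) % 3 = 1 := by omega
      refine ⟨(X + -1, 0), t0, ?_, ?_⟩
      · simp [partner5, e]
      · have : partner5 (X + -1, 0) = (X + -1, 1) := by simp [partner5, e]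
        rw [this]; exact t1

/-- Every allowed copy of Snaky inside the strip of five rows contains a pair. -/
theorem cover5 (P : Finset Cell) (hP : IsSnakyCopy P) (hin : ∀ c ∈ P, c ∈ strip5) :
    ∃ c ∈ P, partner5 c ≠ c ∧ partner5 c ∈ P := by
  obtain ⟨swap, a, b, ⟨tx, ty⟩, ha, hb, rfl⟩ := hP
  have hmem : ∀ s ∈ snaky, ((tx, ty) : Cell) + signedPerm swap a b s
      ∈ (snaky.map fun c => ((tx, ty) : Cell) + signedPerm swap a b c).toFinset := by
    intro s hs
    rw [List.mem_toFinset]
    exact List.mem_map.mpr ⟨s, hs, rfl⟩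
  have m0 := hmem (0, 0) (by simp [snaky])
  have m1 := hmem (1, 0) (by simp [snaky])
  have m2 := hmem (2, 0) (by simp [snaky])
  have m3 := hmem (3, 0) (by simp [snaky])
  have m4 := hmem (3, 1) (by simp [snaky])
  have m5 := hmem (4, 1) (by simp [snaky])
  cases swap with
  | false =>
    simp only [signedPerm, Bool.false_eq_true, if_false, Prod.mk_add_mk, mul_zero, add_zero,
      mul_one] at m0 m1 m2 m3
    rcases ha with rfl | rfl
    · simp only [one_mul] at m2 m3
      exact cover_row _ tx ty m0 m1 m2 m3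
    · refine cover_row _ (tx - 3) ty ?_ ?_ ?_ ?_
      · have : tx - 3 = tx + -1 * 3 := by ring
        rw [this]; exact m3
      · have : tx - 3 + 1 = tx + -1 * 2 := by ring
        rw [this]; exact m2
      · have : tx - 3 + 2 = tx + -1 := by ring
        rw [this]; exact m1
      · have : tx - 3 + 3 = tx := by ring
        rw [this]; exact m0
  | true =>
    have s0 := hin _ m0
    have s5 := hin _ m5
    simp only [signedPerm, if_true, Prod.mk_add_mk, mul_zero, add_zero, mul_one]
      at m0 m1 m2 m3 m4 m5 s0 s5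
    have s0' : 0 ≤ ty ∧ ty ≤ 4 := s0
    have s5' : 0 ≤ ty + b * 4 ∧ ty + b * 4 ≤ 4 := s5
    rcases hb with rfl | rfl
    · have hty : ty = 0 := by omega
      subst hty
      simp only [zero_add, one_mul] at m0 m1 m2 m3 m4 m5
      exact cover_col_up _ tx a ha m0 m1 m3 m4 m5
    · have hty : ty = 4 := by omega
      subst hty
      have e1 : (4 : ℤ) + -1 = 3 := by norm_num
      have e2 : (4 : ℤ) + -1 * 2 = 2 := by norm_num
      have e3 : (4 : ℤ) + -1 * 3 = 1 := by norm_num
      have e4 : (4 : ℤ) + -1 * 4 = 0 := by norm_num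
      rw [e1] at m1
      rw [e2] at m2
      rw [e3] at m3 m4
      rw [e4] at m5
      exact cover_col_down _ tx a ha m0 m1 m3 m4 m5

end Vale.Agent.Lib.P062
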